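import Vale.Agent.P333.Defs
import Vale.Agent.P333.Poly

namespace Vale.Agent.Results.P333.TwoApprox

open Vale.Agent.P333 Vale.Agent.Lib.PolyTime

/-- The shortest common superstring problem has a polynomial-time `2`-approximation. -/
theorem result : HasApprox 2 ∧ rhoStar ≤ 2 := by
  have h : HasApprox 2 := by
    have hM := (pt_superstr.comp pt_parse).machine
      (fun S : List (List ℕ) => S.flatMap (fun s : List ℕ => s.map (fun a => a + 1) ++ [0])) id
      superstr (fun S => by rw [parse_code]; rfl)
    refine ⟨superstr, hM, fun S => ⟨(superstr_spec S).1, ?_⟩⟩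
    obtain ⟨T, hT, e⟩ := Nat.sInf_mem (s := {n | ∃ T, IsSuper S T ∧ T.length = n})
      ⟨_, superstr S, (superstr_spec S).1, rfl⟩
    have := (superstr_spec S).2 T hT
    rw [e] at this
    exact_mod_cast this
  exact ⟨h, csInf_le ⟨1, fun _ hx => hx.1⟩ ⟨by norm_num, h⟩⟩

end Vale.Agent.Results.P333.TwoApprox
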